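import Vale.Agent.Lib.P064.PcRefined
import Vale.Agent.Lib.P064.PermMaxMain
import Vale.Agent.Lib.P064.DegreeMain

namespace Vale.Agent.Results.P064.Combined

open SimpleGraph Vale.Agent.Lib.P064

/-- For all `n` and every graph `H` with at least one edge and at most `n` vertices:
`p_c ≤ 1068 (log n)^2 p_E`, `p_c ≤ 267 (log (2 e(H)))^2 p_E`, `ptilde_E ≤ 347 log n p_E`, and if
every vertex of `H` has at most `Δ` neighbours then `p_c ≤ 4200 Δ log (2 e(H)) p_E`,
`p_c ≤ 8400 Δ log n p_E` and `ptilde_E ≤ 180 Δ p_E`. -/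
theorem result (n : ℕ) (V : Type) [Fintype V] (H : SimpleGraph V)
    (hcard : Fintype.card V ≤ n) (hne : H.edgeSet.Nonempty) :
    pc n H ≤ 1068 * Real.log n ^ 2 * pE n H ∧
    pc n H ≤ 267 * Real.log (2 * H.edgeSet.ncard) ^ 2 * pE n H ∧
    pEtilde n H ≤ 347 * Real.log n * pE n H ∧
    ∀ Δ : ℕ, (∀ v : V, (H.neighborSet v).ncard ≤ Δ) →
      pc n H ≤ 4200 * (Δ : ℝ) * Real.log (2 * H.edgeSet.ncard) * pE n H ∧
      pc n H ≤ 8400 * (Δ : ℝ) * Real.log n * pE n H ∧
      pEtilde n H ≤ 180 * (Δ : ℝ) * pE n H := by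
  classical
  have hE := pE_nonneg n H
  have hl := log_two_edges_le n V H hcard hne
  have hm : 1 ≤ H.edgeSet.ncard := (Set.ncard_pos (Set.toFinite _)).2 hne
  have hl0 : 0 ≤ Real.log (2 * H.edgeSet.ncard) := by
    apply Real.log_nonneg
    have : (1 : ℝ) ≤ (H.edgeSet.ncard : ℝ) := by exact_mod_cast hm
    linarith
  have h2 := pc_le_log_edges_sq n V H hcard hne
  obtain ⟨e, he⟩ := hne
  induction e using Sym2.ind with
  | _ a b =>
  have hab : H.Adj a b := he
  have hn : 2 ≤ n := by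
    refine le_trans ?_ hcard
    have : (({a, b} : Finset V)).card ≤ Fintype.card V := Finset.card_le_univ _
    rwa [Finset.card_pair hab.ne] at this
  refine ⟨?_, h2, pEtilde_le_log n hn V H hcard, ?_⟩
  · refine h2.trans (mul_le_mul_of_nonneg_right ?_ hE)
    have : Real.log (2 * H.edgeSet.ncard) ^ 2 ≤ (2 * Real.log n) ^ 2 :=
      pow_le_pow_left₀ hl0 hl 2
    nlinarith
  · intro Δ hΔ
    have hdeg : ∀ y, H.degree y ≤ Δ := fun y => by
      have h := hΔ y
      rw [Set.ncard_eq_toFinset_card'] at h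
      exact h
    have hΔ1 : 1 ≤ Δ := by
      refine le_trans ?_ (hdeg a)
      exact (H.degree_pos_iff_exists_adj a).2 ⟨b, hab⟩
    have h3 := pc_le_degree n V H hcard ⟨s(a, b), he⟩ Δ hdeg
    refine ⟨h3, h3.trans (mul_le_mul_of_nonneg_right ?_ hE),
      pEtilde_le_degree H n hcard Δ hdeg hΔ1⟩
    have hΔ0 : (0 : ℝ) ≤ (Δ : ℝ) := Nat.cast_nonneg _
    nlinarith [mul_le_mul_of_nonneg_left hl hΔ0]

end Vale.Agent.Results.P064.Combined
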