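import Vale.Agent.Lib.P064.PermMaxMain

namespace Vale.Agent.Results.P064.LogBound

open SimpleGraph Vale.Agent.Lib.P064

/-- For all `n ≥ 2` and every graph `H` on at most `n` vertices,
`ptilde_E(n,H) ≤ 347 log n p_E(n,H)`. -/
theorem result (n : ℕ) (hn : 2 ≤ n) (V : Type) [Fintype V] (H : SimpleGraph V)
    (hcard : Fintype.card V ≤ n) :
    pEtilde n H ≤ 347 * Real.log n * pE n H :=
  pEtilde_le_log n hn V H hcard

end Vale.Agent.Results.P064.LogBound
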