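import Vale.Agent.Lib.P064.PcMain

namespace Vale.Agent.Results.P064.PcLogSquared

open SimpleGraph Vale.Agent.Lib.P064

/-- For all `n ≥ 2` and every graph `H` with at least one edge and at most `n` vertices,
`p_c(n,H) ≤ 4300 (log n)^2 p_E(n,H)`. -/
theorem result (n : ℕ) (hn : 2 ≤ n) (V : Type) [Fintype V] (H : SimpleGraph V)
    (hcard : Fintype.card V ≤ n) (hne : H.edgeSet.Nonempty) :
    pc n H ≤ 4300 * Real.log n ^ 2 * pE n H :=
  pc_le_log_sq n hn V H hcard hne

end Vale.Agent.Results.P064.PcLogSquared
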