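import Vale.Agent.Lib.P064.PcRefined

namespace Vale.Agent.Results.P064.PcRefined

open SimpleGraph Vale.Agent.Lib.P064

/-- For all `n` and every graph `H` with at least one edge and at most `n` vertices:
`p_c ≤ 1068 (log n)^2 p_E`, `p_c ≤ 267 (log (2 e(H)))^2 p_E`, and if every vertex of `H` has at most
`Δ` neighbours then `p_c ≤ 4200 Δ log (2 e(H)) p_E` and `p_c ≤ 8400 Δ log n p_E`. -/
theorem result (n : ℕ) (V : Type) [Fintype V] (H : SimpleGraph V)
    (hcard : Fintype.card V ≤ n) (hne : H.edgeSet.Nonempty) :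
    pc n H ≤ 1068 * Real.log n ^ 2 * pE n H ∧
    pc n H ≤ 267 * Real.log (2 * H.edgeSet.ncard) ^ 2 * pE n H ∧
    ∀ Δ : ℕ, (∀ v : V, (H.neighborSet v).ncard ≤ Δ) →
      pc n H ≤ 4200 * (Δ : ℝ) * Real.log (2 * H.edgeSet.ncard) * pE n H ∧
      pc n H ≤ 8400 * (Δ : ℝ) * Real.log n * pE n H := by
  classical
  have hE := pE_nonneg n H
  have hl := log_two_edges_le n V H hcard hne
  have hm : 1 ≤ H.edgeSet.ncard := (Set.ncard_pos (Set.toFinite _)).2 hne
  have hl0 : 0 ≤ Real.log (2 * H.edgeSet.ncard) := by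
    apply Real.log_nonneg
    have : (1 : ℝ) ≤ (H.edgeSet.ncard : ℝ) := by exact_mod_cast hm
    linarith
  have h2 := pc_le_log_edges_sq n V H hcard hne
  refine ⟨?_, h2, ?_⟩
  · refine h2.trans (mul_le_mul_of_nonneg_right ?_ hE)
    have : Real.log (2 * H.edgeSet.ncard) ^ 2 ≤ (2 * Real.log n) ^ 2 :=
      pow_le_pow_left₀ hl0 hl 2
    nlinarith
  · intro Δ hΔ
    have h3 := pc_le_degree n V H hcard hne Δ (fun y => by
      have h := hΔ y
      rw [Set.ncard_eq_toFinset_card'] at h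
      exact h)
    refine ⟨h3, h3.trans (mul_le_mul_of_nonneg_right ?_ hE)⟩
    have hΔ0 : (0 : ℝ) ≤ (Δ : ℝ) := Nat.cast_nonneg _
    nlinarith [mul_le_mul_of_nonneg_left hl hΔ0]

end Vale.Agent.Results.P064.PcRefined
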